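import Vale.Agent.P193.Comp

/-! The Boone-Higman conjecture. -/

namespace Vale.Agent.Results.P193.BooneHigman

universe u

theorem result (G : Type u) [Group G] (n : ℕ) (g : Fin n → G)
    (hg : Subgroup.closure (Set.range g) = ⊤)
    (hw : ComputablePred fun w : List (Fin n × Bool) =>
      (w.map fun x => if x.2 = true then g x.1 else (g x.1)⁻¹).prod = 1) :
    ∃ (H : Type) (_ : Group H), Group.IsFinitelyPresented H ∧ IsSimpleGroup H ∧
      ∃ f : G →* H, Function.Injective f :=
  Vale.Agent.P193.boone_higman g hg hw

end Vale.Agent.Results.P193.BooneHigman
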